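import Vale.Agent.P224.R2.H869.TlBlk
import Vale.Agent.P224.R2.H758.TbD

/-!
The block 100 to 200 with the thresholds (96/5, 53/4).
-/

namespace Vale.Agent.P224.R2.H106

open Vale.Agent.P224.R2.H484 Vale.Agent.P224.R2.H876 Vale.Agent.P224.R2.H869
  Vale.Agent.P224.R2.H758

/-- the block 100 to 200 -/
def bB100 : BlkS where
  m1 := 100
  m2 := 200
  L := Lb100
  Lm := L200
  c1 := 96 / 5
  c2 := 53 / 4
  η := 1 / 20
  β := 4 / 5
  K := 57 / 50
  jj := 5
  i1 := 13
  i2 := 8
  X2 := tN X2b100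
  X1 := tN X1b100
  X0 := tN X0b100
  z2 := z2b100
  z1 := z1b100
  z0 := z0b100
  ok := okb100
  cells := cellsb100
  coef := coefb100
  mom := fun m q h1 h2 => MM_le_200 (by omega) (by omega) q

end Vale.Agent.P224.R2.H106
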