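import Vale.Agent.P224.R2.H106.CA36k05
import Vale.Agent.P224.R2.H106.CA36k07
import Vale.Agent.P224.R2.H106.CA60k05
import Vale.Agent.P224.R2.H106.CA60k085
import Vale.Agent.P224.R2.H106.CA60k10
import Vale.Agent.P224.R2.H106.CB100k05
import Vale.Agent.P224.R2.H106.CB100k067
import Vale.Agent.P224.R2.H106.CB100k085
import Vale.Agent.P224.R2.H106.CB100k10
import Vale.Agent.P224.R2.H106.CB100k12
import Vale.Agent.P224.R2.H106.CB100k14

/-!
The certificates of the relative tail for the blocks 36 to 60, 60 to 100 and 100 to 200.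
-/

namespace Vale.Agent.P224.R2.H106

open Vale.Agent.P224.R2.H869

/-- the block 36 to 60 -/
def certsA36 : List (CertM bA36) := [CA36k05.cert, CA36k07.cert]

/-- the block 60 to 100 -/
def certsA60 : List (CertM bA60) := [CA60k05.cert, CA60k085.cert, CA60k10.cert]

/-- the block 100 to 200 -/
def certsB100 : List (CertM bB100) :=
  [CB100k05.cert, CB100k067.cert, CB100k085.cert, CB100k10.cert, CB100k12.cert, CB100k14.cert]

theorem certsA36_map : certsA36.map (fun C => (C.kap, C.rel))
    = [(1 / 20, 1 / 50), (7 / 100, 3 / 100)] := rfl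

theorem certsA60_map : certsA60.map (fun C => (C.kap, C.rel))
    = [(1 / 20, 1 / 50), (17 / 200, 3 / 100), (1 / 10, 2 / 25)] := rfl

theorem certsB100_map : certsB100.map (fun C => (C.kap, C.rel))
    = [(1 / 20, 7 / 500), (67 / 1000, 31 / 2000), (17 / 200, 1 / 50), (1 / 10, 9 / 400),
      (3 / 25, 3 / 100), (7 / 50, 1 / 20)] := rfl

end Vale.Agent.P224.R2.H106
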