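import Mathlib.Data.Real.Basic
import Mathlib.Data.Nat.ModEq
import Mathlib.Algebra.BigOperators.Group.Finset.Basic
import Mathlib.Algebra.BigOperators.Ring.Finset
import Mathlib.Tactic

/-!
A kernel check of `N(x) ≤ P(x)` for all `x ≥ 0`, for polynomials with natural coefficients: on a
cell the tangent of `P` at the middle is compared with the chord of `N`; the cells are found by
bisection; beyond the last node the top coefficients are compared. The value at `u` is computed as
the value at a large number `B` modulo `B - u`.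
-/

namespace Vale.Agent.P224.R2.H106

/-- the value at a natural number -/
def pv (l : List ℕ) (x : ℕ) : ℕ := List.rec 0 (fun a _ ih => Nat.add a (Nat.mul x ih)) l

/-- multiplication of the coefficients by `k`, `k + 1`, ... -/
def der (k : ℕ) (l : List ℕ) : List ℕ :=
  List.rec (fun _ => []) (fun a _ ih k => Nat.mul k a :: ih (Nat.succ k)) l k

/-- multiplication by a number -/
def smulL (k : ℕ) (l : List ℕ) : List ℕ := List.rec [] (fun a _ ih => Nat.mul k a :: ih) l

/-- the sum of two polynomials -/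
def addL (l : List ℕ) : List ℕ → List ℕ :=
  List.rec (fun b => b) (fun x l' ih b => List.rec (x :: l') (fun y b' _ => Nat.add x y :: ih b') b) l

/-- the value of a polynomial with natural coefficients, lowest first -/
noncomputable def ev : List ℕ → ℝ → ℝ
  | [], _ => 0
  | c :: l, x => (c : ℝ) + x * ev l x

/-- the derivative -/
noncomputable def dv : List ℕ → ℝ → ℝ
  | [], _ => 0
  | _ :: l, x => ev l x + x * dv l x

/-! ### lists -/

@[simp] lemma pv_nil (x : ℕ) : pv [] x = 0 := rfl

lemma pv_cons (a : ℕ) (l : List ℕ) (x : ℕ) : pv (a :: l) x = a + x * pv l x := rfl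

lemma der_nil (k : ℕ) : der k [] = [] := rfl

lemma der_cons (k a : ℕ) (l : List ℕ) : der k (a :: l) = (k * a) :: der (k + 1) l := rfl

lemma smulL_nil (k : ℕ) : smulL k [] = [] := rfl

lemma smulL_cons (k a : ℕ) (l : List ℕ) : smulL k (a :: l) = (k * a) :: smulL k l := rfl

lemma addL_nil (b : List ℕ) : addL [] b = b := rfl

lemma addL_cons_nil (x : ℕ) (l : List ℕ) : addL (x :: l) [] = x :: l := rfl

lemma addL_cons (x y : ℕ) (l b : List ℕ) : addL (x :: l) (y :: b) = (x + y) :: addL l b := rfl

lemma ev_nil (x : ℝ) : ev [] x = 0 := rfl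

lemma ev_cons (c : ℕ) (l : List ℕ) (x : ℝ) : ev (c :: l) x = c + x * ev l x := rfl

lemma ev_smulL (k : ℕ) (l : List ℕ) (x : ℝ) : ev (smulL k l) x = k * ev l x := by
  induction l with
  | nil => rw [smulL_nil, ev_nil, mul_zero]
  | cons c l ih =>
    rw [smulL_cons, ev_cons, ev_cons, ih]
    push_cast
    ring

lemma ev_addL (l : List ℕ) (x : ℝ) : ∀ b : List ℕ, ev (addL l b) x = ev l x + ev b x := by
  induction l with
  | nil => intro b; rw [addL_nil, ev_nil, zero_add]
  | cons c l ih =>
    intro b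
    rcases b with _ | ⟨y, b⟩
    · rw [addL_cons_nil, ev_nil, add_zero]
    · rw [addL_cons, ev_cons, ev_cons, ev_cons, ih]
      push_cast
      ring

lemma ev_pv (l : List ℕ) (u : ℕ) : ev l u = pv l u := by
  induction l with
  | nil => simp [ev]
  | cons c l ih =>
    rw [ev_cons, pv_cons, ih]
    push_cast
    ring

/-- the value as a finite sum -/
lemma ev_eq_sum (l : List ℕ) (x : ℝ) :
    ev l x = ∑ k ∈ Finset.range l.length, (l.getD k 0 : ℝ) * x ^ k := by
  induction l with
  | nil => simp [ev]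
  | cons c l ih =>
    rw [List.length_cons, Finset.sum_range_succ', ev, ih, Finset.mul_sum]
    simp only [List.getD_cons_succ, List.getD_cons_zero, pow_zero, mul_one]
    rw [add_comm]
    congr 1
    refine Finset.sum_congr rfl fun k _ => ?_
    rw [pow_succ]
    ring

lemma pv_der_aux (l : List ℕ) (x : ℝ) : ∀ k, ev (der k l) x = k * ev l x + x * dv l x := by
  induction l with
  | nil => intro k; simp [der_nil, ev, dv]
  | cons c l ih =>
    intro k
    rw [der_cons, ev_cons, ih, ev_cons]
    show _ = (k : ℝ) * (c + x * ev l x) + x * (ev l x + x * dv l x)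
    push_cast
    ring

/-- the derivative list -/
lemma ev_der (l : List ℕ) (x : ℝ) : ev (der 1 l.tail) x = dv l x := by
  rcases l with _ | ⟨c, l⟩
  · rfl
  · show ev (der 1 l) x = ev l x + x * dv l x
    rw [pv_der_aux]
    push_cast
    ring

lemma ev_nonneg (l : List ℕ) {x : ℝ} (hx : 0 ≤ x) : 0 ≤ ev l x := by
  induction l with
  | nil => exact le_rfl
  | cons c l ih => exact add_nonneg (Nat.cast_nonneg c) (mul_nonneg hx ih)

lemma dv_nonneg (l : List ℕ) {x : ℝ} (hx : 0 ≤ x) : 0 ≤ dv l x := by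
  rw [← ev_der]
  exact ev_nonneg _ hx

lemma ev_mono (l : List ℕ) {x y : ℝ} (hx : 0 ≤ x) (hxy : x ≤ y) : ev l x ≤ ev l y := by
  induction l with
  | nil => exact le_rfl
  | cons c l ih =>
    exact add_le_add le_rfl (mul_le_mul hxy ih (ev_nonneg l hx) (hx.trans hxy))

/-- the tangent is below -/
lemma ev_tangent (l : List ℕ) {x t : ℝ} (hx : 0 ≤ x) (ht : 0 ≤ t) :
    ev l t + dv l t * (x - t) ≤ ev l x := by
  induction l with
  | nil => simp [ev, dv]
  | cons c l ih =>
    have h1 := mul_le_mul_of_nonneg_left ih hx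
    have h2 : 0 ≤ dv l t * (x - t) ^ 2 := mul_nonneg (dv_nonneg l ht) (sq_nonneg _)
    show ((c : ℝ) + t * ev l t) + (ev l t + t * dv l t) * (x - t) ≤ c + x * ev l x
    nlinarith

/-- the tangent with the derivative list -/
lemma ev_tangent' (l : List ℕ) {x t : ℝ} (hx : 0 ≤ x) (ht : 0 ≤ t) :
    ev l t + ev (der 1 l.tail) t * (x - t) ≤ ev l x := by
  rw [ev_der]
  exact ev_tangent l hx ht

/-- the chord is above -/
lemma ev_chord (l : List ℕ) {u v x : ℝ} (hu : 0 ≤ u) (hux : u ≤ x) (hxv : x ≤ v) :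
    (v - u) * ev l x ≤ (v - x) * ev l u + (x - u) * ev l v := by
  have hx : 0 ≤ x := hu.trans hux
  have h1 := mul_le_mul_of_nonneg_left (ev_tangent l hu hx) (sub_nonneg.2 hxv)
  have h2 := mul_le_mul_of_nonneg_left (ev_tangent l (hx.trans hxv) hx) (sub_nonneg.2 hux)
  nlinarith

/-- one cell -/
lemma cell_le (P N : List ℕ) {u v t x : ℝ} (hu : 0 ≤ u) (ht : 0 ≤ t) (hux : u ≤ x) (hxv : x ≤ v)
    (h1 : ev N u ≤ ev P t + dv P t * (u - t)) (h2 : ev N v ≤ ev P t + dv P t * (v - t)) :
    ev N x ≤ ev P x := by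
  have hx : 0 ≤ x := hu.trans hux
  have h3 := ev_tangent P hx ht
  rcases eq_or_lt_of_le (hux.trans hxv) with h | h
  · have e : x = u := le_antisymm (by rw [h]; exact hxv) hux
    rw [e] at h3 ⊢
    linarith
  · have h4 := ev_chord N hu hux hxv
    have h5 := mul_le_mul_of_nonneg_left h1 (sub_nonneg.2 hxv)
    have h6 := mul_le_mul_of_nonneg_left h2 (sub_nonneg.2 hux)
    have h7 : (v - u) * ev N x ≤ (v - u) * (ev P t + dv P t * (x - t)) := by nlinarith
    exact (le_of_mul_le_mul_left h7 (sub_pos.2 h)).trans h3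

/-! ### large arguments -/

/-- scaling of a polynomial -/
lemma ev_scale (N : List ℕ) {u x : ℝ} (hu : 0 < u) (hux : u ≤ x) :
    u ^ (N.length - 1) * ev N x ≤ x ^ (N.length - 1) * ev N u := by
  induction N with
  | nil => simp [ev]
  | cons c l ih =>
    rcases l with _ | ⟨c', l⟩
    · simp [ev]
    · have e : (c :: c' :: l).length - 1 = ((c' :: l).length - 1) + 1 := by simp
      rw [e, pow_succ, pow_succ]
      have hx : 0 < x := hu.trans_le hux
      have h1 : u ^ ((c' :: l).length - 1) ≤ x ^ ((c' :: l).length - 1) :=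
        pow_le_pow_left₀ hu.le hux _
      have h2 : u ^ ((c' :: l).length - 1) * u * c ≤ x ^ ((c' :: l).length - 1) * x * c := by
        refine mul_le_mul_of_nonneg_right ?_ (Nat.cast_nonneg c)
        exact mul_le_mul h1 hux hu.le (by positivity)
      have h3 := mul_le_mul_of_nonneg_left ih (mul_nonneg hu.le hx.le)
      show u ^ ((c' :: l).length - 1) * u * ((c : ℝ) + x * ev (c' :: l) x)
        ≤ x ^ ((c' :: l).length - 1) * x * ((c : ℝ) + u * ev (c' :: l) u)
      nlinarith

lemma ev_drop (n : ℕ) : ∀ (P : List ℕ) {x : ℝ}, 0 ≤ x → x ^ n * ev (P.drop n) x ≤ ev P x := by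
  induction n with
  | zero => intro P x hx; simp
  | succ n ih =>
    intro P x hx
    rcases P with _ | ⟨c, l⟩
    · simp [ev]
    · have h1 := mul_le_mul_of_nonneg_left (ih l hx) hx
      show x ^ (n + 1) * ev (l.drop n) x ≤ (c : ℝ) + x * ev l x
      rw [pow_succ]
      have := Nat.cast_nonneg (α := ℝ) c
      nlinarith

/-- beyond the last node -/
lemma tail_sound {P N : List ℕ} {u : ℕ} (hu : 1 ≤ u)
    (h : pv N u ≤ u ^ (N.length - 1) * pv (P.drop (N.length - 1)) u) {x : ℝ} (hux : (u : ℝ) ≤ x) :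
    ev N x ≤ ev P x := by
  have hu' : (0 : ℝ) < u := by exact_mod_cast hu
  have hx : 0 < x := hu'.trans_le hux
  have h1 := ev_scale N hu' hux
  have h2 := ev_drop (N.length - 1) P hx.le
  have h3 : ev N u ≤ (u : ℝ) ^ (N.length - 1) * ev (P.drop (N.length - 1)) u := by
    rw [ev_pv, ev_pv]
    exact_mod_cast h
  have h4 := ev_mono (P.drop (N.length - 1)) hu'.le hux
  have hp : (0 : ℝ) < (u : ℝ) ^ (N.length - 1) := by positivity
  have hq : (0 : ℝ) < x ^ (N.length - 1) := by positivity
  have h5 : (u : ℝ) ^ (N.length - 1) * ev N x ≤ (u : ℝ) ^ (N.length - 1) * ev P x := by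
    calc (u : ℝ) ^ (N.length - 1) * ev N x ≤ x ^ (N.length - 1) * ev N u := h1
      _ ≤ x ^ (N.length - 1) * ((u : ℝ) ^ (N.length - 1) * ev (P.drop (N.length - 1)) u) :=
        mul_le_mul_of_nonneg_left h3 hq.le
      _ ≤ x ^ (N.length - 1) * ((u : ℝ) ^ (N.length - 1) * ev (P.drop (N.length - 1)) x) :=
        mul_le_mul_of_nonneg_left (mul_le_mul_of_nonneg_left h4 hp.le) hq.le
      _ = (u : ℝ) ^ (N.length - 1) * (x ^ (N.length - 1) * ev (P.drop (N.length - 1)) x) := by ring
      _ ≤ (u : ℝ) ^ (N.length - 1) * ev P x := mul_le_mul_of_nonneg_left h2 hp.le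
  exact le_of_mul_le_mul_left h5 hp

/-! ### packed evaluation -/

lemma pv_modEq (l : List ℕ) {u B : ℕ} (h : u ≤ B) : pv l B ≡ pv l u [MOD B - u] := by
  have hB : B ≡ u [MOD B - u] := by
    have h1 : u + (B - u) = B := Nat.add_sub_cancel' h
    have h2 : u + (B - u) ≡ u [MOD B - u] := by simp [Nat.ModEq]
    rwa [h1] at h2
  induction l with
  | nil => exact rfl
  | cons c l ih =>
    rw [pv_cons, pv_cons]
    exact Nat.ModEq.add rfl (Nat.ModEq.mul hB ih)

/-- the value from the packed number -/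
lemma pv_mod (l : List ℕ) {u B : ℕ} (h : pv l u + u < B) : pv l B % (B - u) = pv l u := by
  have h1 := pv_modEq l (u := u) (B := B) (by omega)
  have h2 : pv l u < B - u := by omega
  rw [Nat.ModEq, Nat.mod_eq_of_lt h2] at h1
  exact h1

lemma pv_mono (l : List ℕ) {u v : ℕ} (h : u ≤ v) : pv l u ≤ pv l v := by
  induction l with
  | nil => exact le_rfl
  | cons c l ih => exact Nat.add_le_add le_rfl (Nat.mul_le_mul h ih)

lemma pv_der_le (l : List ℕ) (x : ℕ) :
    ∀ k, pv (der k l) x ≤ (k + l.length) * pv l x := by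
  induction l with
  | nil => intro k; simp [der_nil]
  | cons c l ih =>
    intro k
    rw [der_cons, pv_cons, pv_cons, List.length_cons]
    have h1 := Nat.mul_le_mul_left x (ih (k + 1))
    have h2 : k * c ≤ (k + (l.length + 1)) * c := Nat.mul_le_mul_right c (by omega)
    calc k * c + x * pv (der (k + 1) l) x
        ≤ (k + (l.length + 1)) * c + x * ((k + 1 + l.length) * pv l x) := Nat.add_le_add h2 h1
      _ = (k + (l.length + 1)) * (c + x * pv l x) := by ring

/-- a bound of the derivative -/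
lemma pv_der_tail_le (l : List ℕ) {x : ℕ} (hx : 1 ≤ x) :
    pv (der 1 l.tail) x ≤ l.length * pv l x := by
  rcases l with _ | ⟨c, l⟩
  · simp [der_nil]
  · show pv (der 1 l) x ≤ _
    rw [pv_cons, List.length_cons]
    have h1 := pv_der_le l x 1
    have h2 : pv l x ≤ c + x * pv l x := by nlinarith
    calc pv (der 1 l) x ≤ (1 + l.length) * pv l x := h1
      _ ≤ (l.length + 1) * (c + x * pv l x) := by
        rw [Nat.add_comm]
        exact Nat.mul_le_mul_left _ h2

/-! ### the check -/

/-- the check of one cell with packed numbers -/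
def cellK (PB DB NB B u v t : ℕ) : Bool :=
  Bool.rec false (Nat.ble (Nat.mod NB (Nat.sub B v)) (Nat.add (Nat.mod PB (Nat.sub B t))
      (Nat.mul (Nat.mod DB (Nat.sub B t)) (Nat.sub v t))))
    (Nat.ble (Nat.add (Nat.mod NB (Nat.sub B u)) (Nat.mul (Nat.mod DB (Nat.sub B t))
      (Nat.sub t u))) (Nat.mod PB (Nat.sub B t)))

/-- bisection of the cell with left end `u` and width `w` -/
def bisK (PB DB NB B f : ℕ) : ℕ → ℕ → Bool :=
  Nat.rec (fun u w => cellK PB DB NB B u (Nat.add u w) (Nat.add u (Nat.div w 2)))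
    (fun _ ih u w => Bool.rec
      (Bool.rec false (ih (Nat.add u (Nat.div w 2)) (Nat.sub w (Nat.div w 2)))
        (ih u (Nat.div w 2))) true
      (cellK PB DB NB B u (Nat.add u w) (Nat.add u (Nat.div w 2)))) f

/-- the cells (width, fuel) one after the other, ending at `U` -/
def chainK (PB DB NB B U : ℕ) (l : List (ℕ × ℕ)) : ℕ → Bool :=
  List.rec (fun u => Nat.beq u U)
    (fun a _ ih u => Bool.rec false (ih (Nat.add u a.1)) (bisK PB DB NB B a.2 u a.1)) l

/-- the end of the last cell -/
def sumW (l : List (ℕ × ℕ)) : ℕ := List.rec 0 (fun a _ ih => Nat.add a.1 ih) l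

/-- the conditions at the end `U` of the last cell -/
def endK (P N : List ℕ) (B U : ℕ) : Bool :=
  Nat.ble 1 U && Nat.ble (Nat.add (Nat.mul (Nat.succ P.length) (pv P U)) (Nat.succ U)) B &&
  Nat.ble (Nat.add (pv N U) (Nat.succ U)) B &&
  Nat.ble (pv N U) (Nat.mul (Nat.pow U (N.length - 1)) (pv (P.drop (N.length - 1)) U))

/-- the check without common zeros -/
def uniC (B : ℕ) (nodes : List (ℕ × ℕ)) (P N : List ℕ) : Bool :=
  endK P N B (sumW nodes) &&
    chainK (pv P B) (pv (der 1 P.tail) B) (pv N B) B (sumW nodes) nodes 0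

/-- the check: common zeros at the beginning are dropped; `nodes` are the cells (width, fuel), `B`
is a large number -/
def uniB (B : ℕ) (nodes : List (ℕ × ℕ)) (P : List ℕ) : List ℕ → Bool :=
  List.rec (fun N => uniC B nodes [] N)
    (fun a P' ih N => List.rec (uniC B nodes (a :: P') []) (fun b N' _ =>
      Bool.rec (uniC B nodes (a :: P') (b :: N')) (ih N') (Nat.beq (Nat.add a b) 0)) N) P

section

variable {P N : List ℕ} {B U : ℕ}

/-- the bounds at the last point -/
structure Bd (P N : List ℕ) (B U : ℕ) : Prop where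
  hP : pv P U + U < B
  hD : pv (der 1 P.tail) U + U < B
  hN : pv N U + U < B

lemma and_rec {a b : Bool} (h : (Bool.rec false b a : Bool) = true) : a = true ∧ b = true := by
  cases a
  · exact absurd h (by simp)
  · exact ⟨rfl, h⟩

lemma or_rec {a b : Bool} (h : (Bool.rec b true a : Bool) = true) : a = true ∨ b = true := by
  cases a
  · exact Or.inr h
  · exact Or.inl rfl

lemma cellK_sound (h : Bd P N B U) {u v t : ℕ} (hut : u ≤ t) (htv : t ≤ v) (hv : v ≤ U)
    (hc : cellK (pv P B) (pv (der 1 P.tail) B) (pv N B) B u v t = true) {x : ℝ}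
    (hux : (u : ℝ) ≤ x) (hxv : x ≤ v) : ev N x ≤ ev P x := by
  unfold cellK at hc
  obtain ⟨h1, h2⟩ := and_rec hc
  rw [Nat.ble_eq] at h1 h2
  have hPt : pv P t + t < B := by
    have := pv_mono P (htv.trans hv)
    have := h.hP
    omega
  have hDt : pv (der 1 P.tail) t + t < B := by
    have := pv_mono (der 1 P.tail) (htv.trans hv)
    have := h.hD
    omega
  have hNu : pv N u + u < B := by
    have := pv_mono N ((hut.trans htv).trans hv)
    have := h.hN
    omega
  have hNv : pv N v + v < B := by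
    have := pv_mono N hv
    have := h.hN
    omega
  change pv N B % (B - u) + (pv (der 1 P.tail) B % (B - t)) * (t - u) ≤ pv P B % (B - t) at h1
  change pv N B % (B - v) ≤ pv P B % (B - t) + (pv (der 1 P.tail) B % (B - t)) * (v - t) at h2
  rw [pv_mod _ hPt, pv_mod _ hDt, pv_mod _ hNu] at h1
  rw [pv_mod _ hPt, pv_mod _ hDt, pv_mod _ hNv] at h2
  have h1' : ((pv N u + pv (der 1 P.tail) t * (t - u) : ℕ) : ℝ) ≤ (pv P t : ℕ) := by
    exact_mod_cast h1
  have h2' : ((pv N v : ℕ) : ℝ) ≤ ((pv P t + pv (der 1 P.tail) t * (v - t) : ℕ) : ℝ) := by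
    exact_mod_cast h2
  push_cast [Nat.cast_sub hut] at h1'
  push_cast [Nat.cast_sub htv] at h2'
  refine cell_le P N (t := t) (Nat.cast_nonneg u) (Nat.cast_nonneg t) hux hxv ?_ ?_
  · rw [ev_pv, ev_pv, ← ev_der, ev_pv]
    linarith
  · rw [ev_pv, ev_pv, ← ev_der, ev_pv]
    linarith

lemma bisK_sound (h : Bd P N B U) {f : ℕ} : ∀ {u w : ℕ}, u + w ≤ U →
    bisK (pv P B) (pv (der 1 P.tail) B) (pv N B) B f u w = true → ∀ {x : ℝ},
    (u : ℝ) ≤ x → x ≤ (u + w : ℕ) → ev N x ≤ ev P x := by
  induction f with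
  | zero =>
    intro u w hv hc x hux hxv
    change cellK (pv P B) (pv (der 1 P.tail) B) (pv N B) B u (u + w) (u + w / 2) = true at hc
    exact cellK_sound h (by omega) (by omega) hv hc hux hxv
  | succ f ih =>
    intro u w hv hc x hux hxv
    change (Bool.rec (Bool.rec false
      (bisK (pv P B) (pv (der 1 P.tail) B) (pv N B) B f (u + w / 2) (w - w / 2))
      (bisK (pv P B) (pv (der 1 P.tail) B) (pv N B) B f u (w / 2))) true
      (cellK (pv P B) (pv (der 1 P.tail) B) (pv N B) B u (u + w) (u + w / 2)) : Bool) = true at hc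
    rcases or_rec hc with hc | hc
    · exact cellK_sound h (by omega) (by omega) hv hc hux hxv
    · obtain ⟨h1, h2⟩ := and_rec hc
      rcases le_total x (((u + w / 2 : ℕ) : ℝ)) with hx | hx
      · exact ih (by omega) h1 hux hx
      · have e : u + w / 2 + (w - w / 2) = u + w := by omega
        exact ih (by omega) h2 hx (by rw [e]; exact hxv)

lemma chainK_le : ∀ {l : List (ℕ × ℕ)} {u : ℕ},
    chainK (pv P B) (pv (der 1 P.tail) B) (pv N B) B U l u = true → u ≤ U := by
  intro l
  induction l with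
  | nil =>
    intro u hc
    change Nat.beq u U = true at hc
    rw [Nat.beq_eq] at hc
    omega
  | cons a l ih =>
    intro u hc
    change (Bool.rec false (chainK (pv P B) (pv (der 1 P.tail) B) (pv N B) B U l (u + a.1))
      (bisK (pv P B) (pv (der 1 P.tail) B) (pv N B) B a.2 u a.1) : Bool) = true at hc
    have := ih (and_rec hc).2
    omega

lemma chainK_sound (h : Bd P N B U) (ht : ∀ {x : ℝ}, (U : ℝ) ≤ x → ev N x ≤ ev P x) :
    ∀ {l : List (ℕ × ℕ)} {u : ℕ},
    chainK (pv P B) (pv (der 1 P.tail) B) (pv N B) B U l u = true →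
    ∀ {x : ℝ}, (u : ℝ) ≤ x → ev N x ≤ ev P x := by
  intro l
  induction l with
  | nil =>
    intro u hc x hux
    change Nat.beq u U = true at hc
    rw [Nat.beq_eq] at hc
    rw [hc] at hux
    exact ht hux
  | cons a l ih =>
    intro u hc x hux
    change (Bool.rec false (chainK (pv P B) (pv (der 1 P.tail) B) (pv N B) B U l (u + a.1))
      (bisK (pv P B) (pv (der 1 P.tail) B) (pv N B) B a.2 u a.1) : Bool) = true at hc
    obtain ⟨h1, h2⟩ := and_rec hc
    rcases le_total x ((u + a.1 : ℕ) : ℝ) with hx | hx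
    · exact bisK_sound h (chainK_le h2) h1 hux hx
    · exact ih h2 hx

lemma uniC_sound {nodes : List (ℕ × ℕ)} (h : uniC B nodes P N = true) {x : ℝ} (hx : 0 ≤ x) :
    ev N x ≤ ev P x := by
  unfold uniC endK at h
  simp only [Bool.and_eq_true, Nat.ble_eq] at h
  obtain ⟨⟨⟨⟨h1, h2⟩, h3⟩, h4⟩, h5⟩ := h
  set U := sumW nodes with hU
  change (P.length + 1) * pv P U + (U + 1) ≤ B at h2
  change pv N U + (U + 1) ≤ B at h3
  have h6 := pv_der_tail_le P h1
  have e : (P.length + 1) * pv P U = P.length * pv P U + pv P U := by ring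
  rw [e] at h2
  exact chainK_sound (B := B) ⟨by omega, by omega, by omega⟩ (fun hu => tail_sound h1 h4 hu) h5
    (by simpa using hx)

end

/-- **the check on the half line is sound** -/
theorem uni_sound {B : ℕ} {nodes : List (ℕ × ℕ)} {P : List ℕ} : ∀ {N : List ℕ},
    uniB B nodes P N = true → ∀ {x : ℝ}, 0 ≤ x → ev N x ≤ ev P x := by
  induction P with
  | nil =>
    intro N h x hx
    exact uniC_sound h hx
  | cons a P ih =>
    intro N h x hx
    rcases N with _ | ⟨b, N⟩
    · exact uniC_sound (N := []) h hx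
    · change (Bool.rec (uniC B nodes (a :: P) (b :: N)) (uniB B nodes P N)
        (Nat.beq (a + b) 0) : Bool) = true at h
      cases hab : Nat.beq (a + b) 0 with
      | false =>
        rw [hab] at h
        exact uniC_sound h hx
      | true =>
        rw [hab] at h
        rw [Nat.beq_eq] at hab
        have ha : a = 0 := by omega
        have hb : b = 0 := by omega
        rw [ha, hb, ev_cons, ev_cons]
        exact add_le_add le_rfl (mul_le_mul_of_nonneg_left (ih h hx) hx)

end Vale.Agent.P224.R2.H106
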