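import Vale.Agent.P224.R2.H106.Uni

/-!
The check in one variable with the large number computed from the lists.
-/

namespace Vale.Agent.P224.R2.H106

/-- a number is evaluated before use -/
def fo (n : ℕ) (f : ℕ → Bool) : Bool := Nat.rec (f 0) (fun k _ => f k) (Nat.succ n)

lemma fo_eq (n : ℕ) (f : ℕ → Bool) : fo n f = f n := rfl

/-- the check without common zeros; `U` is the end of the last cell, `p`, `q` the values of `P`,
`N` there -/
def uniE (nodes : List (ℕ × ℕ)) (P N : List ℕ) (U p q : ℕ) : Bool :=
  Bool.rec false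
    (fo (Nat.succ (Nat.add (Nat.mul (Nat.succ P.length) p) (Nat.add q U))) fun B =>
      fo (pv P B) fun PB => fo (pv (der 1 P.tail) B) fun DB => fo (pv N B) fun NB =>
        chainK PB DB NB B U nodes 0)
    (Nat.ble 1 U && Nat.ble q (Nat.mul (Nat.pow U (N.length - 1))
      (pv (P.drop (N.length - 1)) U)))

/-- the check: common zeros at the beginning are dropped; `nodes` are the cells (width, fuel) from
`0` on -/
def uniA (nodes : List (ℕ × ℕ)) (P : List ℕ) : List ℕ → Bool :=
  List.rec (fun N => fo (sumW nodes) fun U => uniE nodes [] N U 0 (pv N U))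
    (fun a P' ih N => List.rec (fo (sumW nodes) fun U => uniE nodes (a :: P') [] U
        (pv (a :: P') U) 0) (fun b N' _ =>
      Bool.rec (fo (sumW nodes) fun U => fo (pv (a :: P') U) fun p => fo (pv (b :: N') U) fun q =>
          uniE nodes (a :: P') (b :: N') U p q)
        (ih N') (Nat.beq (Nat.add a b) 0)) N) P

lemma uniE_sound {nodes : List (ℕ × ℕ)} {P N : List ℕ} {U p q : ℕ} (hp : p = pv P U)
    (hq : q = pv N U) (h : uniE nodes P N U p q = true) {x : ℝ} (hx : 0 ≤ x) :
    ev N x ≤ ev P x := by
  unfold uniE at h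
  obtain ⟨h1, h2⟩ := and_rec h
  simp only [fo_eq] at h2
  rw [Bool.and_eq_true, Nat.ble_eq, Nat.ble_eq] at h1
  obtain ⟨h1, h4⟩ := h1
  subst hp hq
  set B : ℕ := Nat.succ (Nat.add (Nat.mul (Nat.succ P.length) (pv P U)) (Nat.add (pv N U) U))
    with hB
  have hB' : B = (P.length * pv P U + pv P U) + (pv N U + U) + 1 := by
    rw [hB]
    show ((P.length + 1) * pv P U + (pv N U + U)) + 1 = _
    ring
  have h6 := pv_der_tail_le P h1
  exact chainK_sound (B := B) (U := U) ⟨by omega, by omega, by omega⟩
    (fun hu => tail_sound h1 h4 hu) h2 (by simpa using hx)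

/-- **the check on the half line is sound** -/
theorem uniA_sound {nodes : List (ℕ × ℕ)} {P : List ℕ} : ∀ {N : List ℕ},
    uniA nodes P N = true → ∀ {x : ℝ}, 0 ≤ x → ev N x ≤ ev P x := by
  induction P with
  | nil =>
    intro N h x hx
    change fo (sumW nodes) (fun U => uniE nodes [] N U 0 (pv N U)) = true at h
    rw [fo_eq] at h
    exact uniE_sound (by rw [pv_nil]) rfl h hx
  | cons a P ih =>
    intro N h x hx
    rcases N with _ | ⟨b, N⟩
    · change fo (sumW nodes) (fun U => uniE nodes (a :: P) [] U (pv (a :: P) U) 0) = true at h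
      rw [fo_eq] at h
      exact uniE_sound rfl (by rw [pv_nil]) h hx
    · change (Bool.rec (fo (sumW nodes) fun U => fo (pv (a :: P) U) fun p =>
          fo (pv (b :: N) U) fun q => uniE nodes (a :: P) (b :: N) U p q) (uniA nodes P N)
        (Nat.beq (a + b) 0) : Bool) = true at h
      cases hab : Nat.beq (a + b) 0 with
      | false =>
        rw [hab] at h
        simp only [fo_eq] at h
        exact uniE_sound rfl rfl h hx
      | true =>
        rw [hab] at h
        rw [Nat.beq_eq] at hab
        have ha : a = 0 := by omega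
        have hb : b = 0 := by omega
        rw [ha, hb, ev_cons, ev_cons]
        exact add_le_add le_rfl (mul_le_mul_of_nonneg_left (ih h hx) hx)

end Vale.Agent.P224.R2.H106
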