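import Vale.Agent.P224.R2.H582.Tp
import Vale.Agent.P224.R2.H106.Uni

/-!
Soundness of the check in one variable.
-/

namespace Vale.Agent.P224.R2.H106

open Vale.Agent.P224.R2

lemma tp_ev (l : List ℕ) (x : ℝ) : H582.ev l x = ev l x := by
  induction l with
  | nil => rfl
  | cons c l ih =>
    show (c : ℝ) + x * H582.ev l x = _
    rw [ih, ev_cons]

lemma tp_pv (l : List ℕ) (x : ℕ) : H582.pv l x = pv l x := by
  induction l with
  | nil => rfl
  | cons c l ih =>
    show c + x * H582.pv l x = _
    rw [ih, pv_cons]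

lemma tp_der (l : List ℕ) : ∀ k, H582.der k l = der k l := by
  induction l with
  | nil => intro k; rfl
  | cons c l ih =>
    intro k
    show k * c :: H582.der (k + 1) l = _
    rw [ih, der_cons]

lemma tp_fN (n : ℕ) (f : ℕ → Bool) : H582.fN n f = f n := rfl

lemma tp_fL (l : List ℕ) : ∀ f : List ℕ → Bool, H582.fL l f = f l := by
  induction l with
  | nil => intro f; rfl
  | cons c l ih =>
    intro f
    show H582.fN c (fun a' => H582.fL l fun l' => f (a' :: l')) = _
    rw [tp_fN, ih]

/-- **the check on the half line is sound** -/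
theorem uni_soundT {nodes : List (ℕ × ℕ)} {P N : List ℕ} (h : H582.uniB nodes P N = true) (x : ℝ)
    (hx : 0 ≤ x) : H582.ev N x ≤ H582.ev P x := by
  rw [tp_ev, tp_ev]
  unfold H582.uniB at h
  rw [tp_fL, tp_fL] at h
  exact uniA_sound h hx

/-- in the form of a hypothesis -/
theorem uniSound : ∀ (nodes : List (ℕ × ℕ)) (P N : List ℕ), H582.uniB nodes P N = true →
    ∀ x : ℝ, 0 ≤ x → H582.ev N x ≤ H582.ev P x :=
  fun _ _ _ h x hx => uni_soundT h x hx

end Vale.Agent.P224.R2.H106
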